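import Vale.Agent.Lib.P084S.Final

open Metric

/-- Tingley's problem for smooth strictly convex spaces: if `X` is a strictly convex real normed
space of finite dimension at least `3`, `Y` is a real normed space, and the norms of `X` and `Y`
are of class `C^3` off the origin, then every surjective isometry from the unit sphere of `X` onto
the unit sphere of `Y` is the restriction of a bijective real-linear isometry `X ≃ Y`. -/
theorem Vale.Agent.Results.P084.A0_smooth.result
    {X Y : Type*} [NormedAddCommGroup X] [NormedSpace ℝ X] [FiniteDimensional ℝ X]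
    [StrictConvexSpace ℝ X] [NormedAddCommGroup Y] [NormedSpace ℝ Y]
    (hdim : 3 ≤ Module.finrank ℝ X)
    (hX : ContDiffOn ℝ 3 (norm : X → ℝ) {0}ᶜ) (hY : ContDiffOn ℝ 3 (norm : Y → ℝ) {0}ᶜ)
    (f : sphere (0 : X) 1 → sphere (0 : Y) 1) (hf : Isometry f) (hs : Function.Surjective f) :
    ∃ T : X ≃ₗᵢ[ℝ] Y, ∀ x : sphere (0 : X) 1, T x = f x :=
  Vale.Agent.Lib.P084S.main hdim hX hY f hf hs
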