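import Vale.Agent.Lib.P084.L1

open Metric

/-- Mazur-Ulam property for decomposable finite-dimensional spaces: if a real normed space `X` is
the `ℓ∞`-sum or the `ℓ¹`-sum of two nontrivial finite-dimensional real normed spaces `Z` and `W`
(via the linear bijection `E`), then every surjective isometry from the unit sphere of `X` onto the
unit sphere of an arbitrary real normed space `Y` is the restriction of a bijective real-linear
isometry `X ≃ Y`. -/
theorem Vale.Agent.Results.P084.A_sum_l1_or_sup.result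
    {Z W X Y : Type*} [NormedAddCommGroup Z] [NormedSpace ℝ Z] [NormedAddCommGroup W]
    [NormedSpace ℝ W] [NormedAddCommGroup X] [NormedSpace ℝ X] [NormedAddCommGroup Y]
    [NormedSpace ℝ Y] [FiniteDimensional ℝ Z] [FiniteDimensional ℝ W] [Nontrivial Z] [Nontrivial W]
    (E : (Z × W) ≃ₗ[ℝ] X)
    (hE : (∀ a b, ‖E (a, b)‖ = max ‖a‖ ‖b‖) ∨ (∀ a b, ‖E (a, b)‖ = ‖a‖ + ‖b‖))
    (f : sphere (0 : X) 1 → sphere (0 : Y) 1) (hiso : Isometry f)
    (hsurj : Function.Surjective f) :
    ∃ T : X ≃ₗᵢ[ℝ] Y, ∀ x : sphere (0 : X) 1, T x = f x := by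
  classical
  have : FiniteDimensional ℝ X := LinearEquiv.finiteDimensional E
  set g : X → Y := fun x => if h : ‖x‖ = 1 then (f ⟨x, by simpa using h⟩ : Y) else 0 with hg
  have hgval : ∀ x (h : ‖x‖ = 1), g x = f ⟨x, by simpa using h⟩ := by
    intro x h
    simp only [hg, dif_pos h]
  have hS : Vale.Agent.Lib.P084.SphereIso g := by
    refine ⟨fun x hx => ?_, fun y hy => ?_, fun x x' hx hx' => ?_⟩
    · rw [hgval x hx]
      simpa using (f ⟨x, by simpa using hx⟩).2
    · obtain ⟨x, hx⟩ := hsurj ⟨y, by simpa using hy⟩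
      have hx1 : ‖(x : X)‖ = 1 := by simpa using x.2
      refine ⟨x, hx1, ?_⟩
      rw [hgval _ hx1]
      simp [hx]
    · rw [hgval x hx, hgval x' hx']
      have := hiso.dist_eq ⟨x, by simpa using hx⟩ ⟨x', by simpa using hx'⟩
      simpa [Subtype.dist_eq, dist_eq_norm] using this
  suffices hT : ∃ T : X ≃ₗᵢ[ℝ] Y, ∀ x, ‖x‖ = 1 → T x = g x by
    obtain ⟨T, hT⟩ := hT
    refine ⟨T, fun x => ?_⟩
    have hx1 : ‖(x : X)‖ = 1 := by simpa using x.2
    rw [hT _ hx1, hgval _ hx1]
  rcases hE with hsup | hl1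
  · -- transport to the product
    let E' : (Z × W) ≃ₗᵢ[ℝ] X := ⟨E, fun x => by
      obtain ⟨a, b⟩ := x
      rw [hsup, Prod.norm_mk]⟩
    have hS' : Vale.Agent.Lib.P084.SphereIso (fun x : Z × W => g (E' x)) := by
      refine ⟨fun x hx => ?_, fun y hy => ?_, fun x x' hx hx' => ?_⟩
      · exact hS.norm_one _ (by rw [E'.norm_map]; exact hx)
      · obtain ⟨x, hx, hgx⟩ := hS.onto y hy
        refine ⟨E'.symm x, by rw [E'.symm.norm_map]; exact hx, ?_⟩
        show g (E' (E'.symm x)) = y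
        rw [E'.apply_symm_apply, hgx]
      · have h1 := hS.iso (E' x) (E' x') (by rw [E'.norm_map]; exact hx)
          (by rw [E'.norm_map]; exact hx')
        show ‖g (E' x) - g (E' x')‖ = ‖x - x'‖
        rw [h1, ← map_sub, E'.norm_map]
    obtain ⟨T, hT⟩ := Vale.Agent.Lib.P084.sup_product_mazur_ulam hS'
    refine ⟨E'.symm.trans T, fun x hx => ?_⟩
    have hx' : ‖E'.symm x‖ = 1 := by rw [E'.symm.norm_map]; exact hx
    have h2 := hT _ hx'
    simp only [LinearIsometryEquiv.apply_symm_apply] at h2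
    exact h2
  · exact Vale.Agent.Lib.P084.l1_sum_mazur_ulam hl1 hS
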