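import Vale.Agent.Lib.P084.Sup

open Metric

/-- Mazur-Ulam property for sup-norm products: if `Z` and `W` are nontrivial finite-dimensional
real normed spaces, then every surjective isometry from the unit sphere of `Z × W` (Mathlib's
product norm, `‖(z, w)‖ = max ‖z‖ ‖w‖`) onto the unit sphere of an arbitrary real normed space `Y`
is the restriction of a bijective real-linear isometry `Z × W ≃ Y`. -/
theorem Vale.Agent.Results.P084.B_sup_product.result
    {Z W Y : Type*} [NormedAddCommGroup Z] [NormedSpace ℝ Z] [NormedAddCommGroup W]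
    [NormedSpace ℝ W] [NormedAddCommGroup Y] [NormedSpace ℝ Y] [FiniteDimensional ℝ Z]
    [FiniteDimensional ℝ W] [Nontrivial Z] [Nontrivial W]
    (f : sphere (0 : Z × W) 1 → sphere (0 : Y) 1) (hiso : Isometry f)
    (hsurj : Function.Surjective f) :
    ∃ T : (Z × W) ≃ₗᵢ[ℝ] Y, ∀ x : sphere (0 : Z × W) 1, T x = f x := by
  classical
  set g : Z × W → Y := fun x => if h : ‖x‖ = 1 then (f ⟨x, by simpa using h⟩ : Y) else 0 with hg
  have hgval : ∀ x (h : ‖x‖ = 1), g x = f ⟨x, by simpa using h⟩ := by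
    intro x h
    simp only [hg, dif_pos h]
  have hS : Vale.Agent.Lib.P084.SphereIso g := by
    refine ⟨fun x hx => ?_, fun y hy => ?_, fun x x' hx hx' => ?_⟩
    · rw [hgval x hx]
      simpa using (f ⟨x, by simpa using hx⟩).2
    · obtain ⟨x, hx⟩ := hsurj ⟨y, by simpa using hy⟩
      have hx1 : ‖(x : Z × W)‖ = 1 := by simpa using x.2
      refine ⟨x, hx1, ?_⟩
      rw [hgval _ hx1]
      simp [hx]
    · rw [hgval x hx, hgval x' hx']
      have := hiso.dist_eq ⟨x, by simpa using hx⟩ ⟨x', by simpa using hx'⟩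
      simpa [Subtype.dist_eq, dist_eq_norm] using this
  obtain ⟨T, hT⟩ := Vale.Agent.Lib.P084.sup_product_mazur_ulam hS
  refine ⟨T, fun x => ?_⟩
  have hx1 : ‖(x : Z × W)‖ = 1 := by simpa using x.2
  rw [hT _ hx1, hgval _ hx1]
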